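import Mathlib

namespace Vale.Agent.P295M.CardPf

open MvPolynomial

theorem card_zero_le {κ ι : Type} [Fintype κ] [Fintype ι] {K : Type} [Field K] [Finite K]
    (a : ι → MvPolynomial κ K)
    (p : κ → Polynomial K) (h : κ → ι → MvPolynomial κ K) (hp : ∀ j, p j ≠ 0)
    (hrel : ∀ j, Polynomial.aeval (X j) (p j) = ∑ i, h j i * a i) :
    Nat.card {x : κ → K // ∀ i, eval x (a i) = 0} ≤ ∏ j, (p j).natDegree := by
  classical
  have hroot : ∀ (x : κ → K), (∀ i, eval x (a i) = 0) → ∀ j, (p j).eval (x j) = 0 := by
    intro x hx j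
    have h1 := congrArg (eval x) (hrel j)
    have h2 : eval x (Polynomial.aeval (X j) (p j)) = (p j).eval (x j) := by
      rw [Polynomial.aeval_def, Polynomial.hom_eval₂, Polynomial.eval, eval_X]
      congr 1
      ext r
      simp
    rw [h2, map_sum] at h1
    rw [h1]
    exact Finset.sum_eq_zero fun i _ => by rw [map_mul, hx i, mul_zero]
  let s : Finset (κ → K) := Fintype.piFinset (fun j => (p j).roots.toFinset)
  have hmem : ∀ x : {x : κ → K // ∀ i, eval x (a i) = 0}, (x : κ → K) ∈ s := by
    intro x
    rw [Fintype.mem_piFinset]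
    intro j
    rw [Multiset.mem_toFinset, Polynomial.mem_roots (hp j)]
    exact hroot x.1 x.2 j
  have h1 : Nat.card {x : κ → K // ∀ i, eval x (a i) = 0} ≤ Nat.card s :=
    Nat.card_le_card_of_injective (fun x => (⟨x.1, hmem x⟩ : s)) fun x y hxy => by
      have := congrArg (fun z : s => (z : κ → K)) hxy
      exact Subtype.ext this
  refine h1.trans ?_
  rw [Nat.card_eq_fintype_card, Fintype.card_coe, Fintype.card_piFinset]
  refine Finset.prod_le_prod' fun j _ => ?_
  exact (Multiset.toFinset_card_le _).trans (Polynomial.card_roots' _)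

end Vale.Agent.P295M.CardPf
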