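import Vale.Agent.P295M.MDefs
import Vale.Agent.P295K.Diag
import Vale.Agent.P295K.Hess

namespace Vale.Agent.P295M

open MvPolynomial Vale.Agent.P295K

variable {κ ι : Type} [Fintype κ] [DecidableEq κ] [Fintype ι] [DecidableEq ι]

/-- X1A.  Compare `exists_univariate` in P295K/Hess.lean. -/
theorem exists_base (h : MvPolynomial (κ ⊕ ι) ℂ) (hh : ∀ i : ι, pderiv (Sum.inr i) h = 0) :
    ∃ p : MvPolynomial κ ℂ, h = rename Sum.inl p := by
  obtain ⟨q, hq⟩ := exists_rename_eq_of_vars_subset_range h (Sum.inl : κ → κ ⊕ ι)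
    Sum.inl_injective (by
      intro v hv
      obtain ⟨s, hs, hvs⟩ := (mem_vars v).1 (Finset.mem_coe.1 hv)
      rcases v with k | i
      · exact ⟨k, rfl⟩
      · exfalso
        have hne : s (Sum.inr i) ≠ 0 := Finsupp.mem_support_iff.1 hvs
        have h1 := coeff_pderiv (i := Sum.inr i) h (s - Finsupp.single (Sum.inr i) 1)
        have h2 : s - Finsupp.single (Sum.inr i) 1 + Finsupp.single (Sum.inr i) 1 = s := by
          apply tsub_add_cancel_of_le
          rw [Finsupp.single_le_iff]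
          omega
        rw [hh i, h2, coeff_zero] at h1
        rw [mem_support_iff] at hs
        have h3 : (((s - Finsupp.single (Sum.inr i) 1 : κ ⊕ ι →₀ ℕ) (Sum.inr i) : ℕ) : ℂ) + 1 ≠ 0 :=
          Nat.cast_add_one_ne_zero _
        exact mul_ne_zero hs h3 h1.symm)
  exact ⟨q, hq.symm⟩

omit [Fintype κ] [DecidableEq κ] [Fintype ι] [DecidableEq ι] in
theorem X1B_ren (p : MvPolynomial κ ℂ) (i : ι) :
    pderiv (Sum.inr i) (rename Sum.inl p : MvPolynomial (κ ⊕ ι) ℂ) = 0 := by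
  induction p using MvPolynomial.induction_on with
  | C a => rw [rename_C, pderiv_C]
  | add p q hp hq => rw [map_add, map_add, hp, hq, add_zero]
  | mul_X p j hp =>
    rw [map_mul, rename_X, pderiv_mul, hp, pderiv_X_of_ne (by simp), zero_mul, mul_zero, add_zero]

omit [Fintype κ] [DecidableEq κ] in
theorem X1B_lin (q : ι → ℂ) (i : ι) :
    pderiv (Sum.inr i) (∑ l, C (q l) * X (Sum.inr l) : MvPolynomial (κ ⊕ ι) ℂ) = C (q i) := by
  rw [map_sum, Finset.sum_eq_single i]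
  · rw [pderiv_C_mul, pderiv_X_self, mul_one]
  · intro l _ hl
    rw [pderiv_C_mul, pderiv_X_of_ne (fun hh => hl (Sum.inr_injective hh)), mul_zero]
  · intro hi
    exact absurd (Finset.mem_univ i) hi

omit [Fintype κ] [DecidableEq κ] in
theorem X1B_quad (Q : Matrix ι ι ℂ) (j : ι) :
    pderiv (Sum.inr j) (∑ k, ∑ l, C (Q k l) * X (Sum.inr k) * X (Sum.inr l) :
      MvPolynomial (κ ⊕ ι) ℂ) =
      ∑ l, C (Q j l) * X (Sum.inr l) + ∑ k, C (Q k j) * X (Sum.inr k) := by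
  have h1 : ∀ k, pderiv (Sum.inr j) (∑ l, C (Q k l) * X (Sum.inr k) * X (Sum.inr l) :
      MvPolynomial (κ ⊕ ι) ℂ) =
      (if k = j then ∑ l, C (Q k l) * X (Sum.inr l) else 0) + C (Q k j) * X (Sum.inr k) := by
    intro k
    have h2 : (∑ l, C (Q k l) * X (Sum.inr k) * X (Sum.inr l) : MvPolynomial (κ ⊕ ι) ℂ) =
        X (Sum.inr k) * ∑ l, C (Q k l) * X (Sum.inr l) := by
      rw [Finset.mul_sum]
      refine Finset.sum_congr rfl fun l _ => ?_
      ring
    rw [h2, pderiv_mul, X1B_lin]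
    by_cases hk : k = j
    · subst hk
      rw [if_pos rfl, pderiv_X_self]
      ring
    · rw [if_neg hk, pderiv_X_of_ne (fun hh => hk (Sum.inr_injective hh))]
      ring
  rw [map_sum, Finset.sum_congr rfl fun k _ => h1 k, Finset.sum_add_distrib,
    Finset.sum_ite_eq' Finset.univ j, if_pos (Finset.mem_univ j)]

omit [Fintype κ] [DecidableEq κ] in
theorem X1B_alin (a : ι → MvPolynomial κ ℂ) (i : ι) :
    pderiv (Sum.inr i) (∑ j, rename Sum.inl (a j) * X (Sum.inr j) : MvPolynomial (κ ⊕ ι) ℂ) =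
      rename Sum.inl (a i) := by
  rw [map_sum, Finset.sum_eq_single i]
  · rw [pderiv_mul, X1B_ren, pderiv_X_self, zero_mul, mul_one, zero_add]
  · intro l _ hl
    rw [pderiv_mul, X1B_ren, pderiv_X_of_ne (fun hh => hl (Sum.inr_injective hh)), zero_mul,
      mul_zero, zero_add]
  · intro hi
    exact absurd (Finset.mem_univ i) hi

/-- X1B.  Compare `hess_form` in P295K/Hess.lean. -/
theorem hess_form2 (f : MvPolynomial (κ ⊕ ι) ℂ)
    (h : ∀ i j : ι, ∃ c : ℂ, pderiv (Sum.inr i) (pderiv (Sum.inr j) f) = C c) :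
    ∃ (b : MvPolynomial κ ℂ) (a : ι → MvPolynomial κ ℂ) (Q : Matrix ι ι ℂ), Q.IsSymm ∧
      f = QP2 b a Q := by
  classical
  choose c hc using h
  have hsymm : ∀ i j, c i j = c j i := by
    intro i j
    have h1 := hc i j
    rw [HESS2_comm, hc j i] at h1
    exact (C_injective (κ ⊕ ι) ℂ h1).symm
  set Q : Matrix ι ι ℂ := fun i j => c i j / 2 with hQ
  have hQs : ∀ i j, Q i j = Q j i := by
    intro i j
    simp only [hQ]
    rw [hsymm i j]
  have hg : ∀ i j : ι, pderiv (Sum.inr i) (pderiv (Sum.inr j)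
      (f - ∑ i, ∑ j, C (Q i j) * X (Sum.inr i) * X (Sum.inr j))) = 0 := by
    intro i j
    rw [map_sub, map_sub, hc i j, X1B_quad, map_add, X1B_lin, X1B_lin (fun k => Q k j),
      hQs j i, ← C_add]
    simp only [hQ]
    rw [add_halves, sub_self]
  have hex : ∀ j : ι, ∃ p : MvPolynomial κ ℂ,
      pderiv (Sum.inr j) (f - ∑ i, ∑ j, C (Q i j) * X (Sum.inr i) * X (Sum.inr j)) =
        rename Sum.inl p :=
    fun j => exists_base _ (fun i => hg i j)
  choose a ha using hex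
  obtain ⟨b, hb⟩ := exists_base
    (f - (∑ i, ∑ j, C (Q i j) * X (Sum.inr i) * X (Sum.inr j)) -
      ∑ i, rename Sum.inl (a i) * X (Sum.inr i)) (by
      intro i
      rw [map_sub, ha i, X1B_alin a, sub_self])
  refine ⟨b, a, Q, ?_, ?_⟩
  · ext i j
    exact hQs j i
  · unfold QP2
    rw [← hb]
    ring

omit [Fintype κ] [DecidableEq κ] in
/-- X2.  Compare `exists_diag` in P295K/Diag.lean (or apply it to `Option ι`, `o = none`). -/
theorem exists_diag2 (Q : Matrix ι ι ℂ) (hQ : Q.IsSymm) :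
    ∃ (P P' : Matrix ι ι ℂ) (d : ι → ℂ), P * P' = 1 ∧ P' * P = 1 ∧
      P.transpose * Q * P = Matrix.diagonal d := by
  exact diag1_core Q hQ

/-- linear substitution -/
private noncomputable def X3_L (P : Matrix ι ι ℂ) (i : ι) : MvPolynomial (κ ⊕ ι) ℂ :=
  ∑ j, C (P i j) * X (Sum.inr j)

private noncomputable def X3_hom (P : Matrix ι ι ℂ) :
    MvPolynomial (κ ⊕ ι) ℂ →ₐ[ℂ] MvPolynomial (κ ⊕ ι) ℂ :=
  aeval (Sum.elim (fun k => X (Sum.inl k)) (X3_L P))

omit [Fintype κ] [DecidableEq κ] [DecidableEq ι] in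
private theorem X3_inl (P : Matrix ι ι ℂ) (k : κ) :
    X3_hom P (X (Sum.inl k) : MvPolynomial (κ ⊕ ι) ℂ) = X (Sum.inl k) := by
  unfold X3_hom
  rw [aeval_X]
  rfl

omit [Fintype κ] [DecidableEq κ] [DecidableEq ι] in
private theorem X3_inr (P : Matrix ι ι ℂ) (i : ι) :
    X3_hom P (X (Sum.inr i) : MvPolynomial (κ ⊕ ι) ℂ) = X3_L P i := by
  unfold X3_hom
  rw [aeval_X]
  rfl

omit [Fintype κ] [DecidableEq κ] [DecidableEq ι] in
private theorem X3_C (P : Matrix ι ι ℂ) (r : ℂ) :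
    X3_hom P (C r : MvPolynomial (κ ⊕ ι) ℂ) = C r := by
  unfold X3_hom
  rw [aeval_C]
  rfl

omit [Fintype κ] [DecidableEq κ] [DecidableEq ι] in
private theorem X3_rename (P : Matrix ι ι ℂ) (p : MvPolynomial κ ℂ) :
    X3_hom P (rename Sum.inl p : MvPolynomial (κ ⊕ ι) ℂ) = rename Sum.inl p := by
  have h : (X3_hom P).comp (rename Sum.inl : MvPolynomial κ ℂ →ₐ[ℂ] MvPolynomial (κ ⊕ ι) ℂ)
      = rename Sum.inl := by
    refine MvPolynomial.algHom_ext fun k => ?_
    rw [AlgHom.comp_apply, rename_X, X3_inl]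
  exact DFunLike.congr_fun h p

omit [Fintype κ] [DecidableEq κ] in
private theorem X3_comp (P P' : Matrix ι ι ℂ) (h : P' * P = 1) :
    (X3_hom P).comp (X3_hom P') = AlgHom.id ℂ (MvPolynomial (κ ⊕ ι) ℂ) := by
  refine MvPolynomial.algHom_ext fun i => ?_
  rcases i with k | i
  · rw [AlgHom.comp_apply, X3_inl, X3_inl, AlgHom.id_apply]
  rw [AlgHom.comp_apply, X3_inr, AlgHom.id_apply]
  have h1 : X3_hom P (X3_L P' i : MvPolynomial (κ ⊕ ι) ℂ) =
      ∑ j, ∑ k, C (P' i j * P j k) * X (Sum.inr k) := by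
    rw [X3_L, map_sum]
    refine Finset.sum_congr rfl fun j _ => ?_
    rw [map_mul, X3_inr, X3_C, X3_L, Finset.mul_sum]
    refine Finset.sum_congr rfl fun k _ => ?_
    rw [map_mul, ← mul_assoc]
  rw [h1, Finset.sum_comm]
  have h2 : ∀ k, ∑ j, C (P' i j * P j k) * X (Sum.inr k)
      = C ((1 : Matrix ι ι ℂ) i k) * (X (Sum.inr k) : MvPolynomial (κ ⊕ ι) ℂ) := by
    intro k
    rw [← Finset.sum_mul, ← h, Matrix.mul_apply, map_sum]
  rw [Finset.sum_congr rfl fun k _ => h2 k, Finset.sum_eq_single i]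
  · rw [Matrix.one_apply_eq, map_one, one_mul]
  · intro k _ hk
    rw [Matrix.one_apply_ne (Ne.symm hk), map_zero, zero_mul]
  · intro hi
    exact absurd (Finset.mem_univ i) hi

omit [Fintype κ] [DecidableEq κ] in
open Matrix in
private theorem X3_quad (P Q : Matrix ι ι ℂ) (d : ι → ℂ)
    (h5 : P.transpose * Q * P = Matrix.diagonal d) :
    ∑ i, ∑ j, C (Q i j) * X3_L P i * X3_L P j
      = ∑ i, C (d i) * (X (Sum.inr i) : MvPolynomial (κ ⊕ ι) ℂ) ^ 2 := by
  obtain ⟨x, hx⟩ : ∃ x : ι → MvPolynomial (κ ⊕ ι) ℂ, x = fun j => X (Sum.inr j) := ⟨_, rfl⟩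
  have hL : (X3_L P : ι → MvPolynomial (κ ⊕ ι) ℂ) = (P.map C) *ᵥ x := by
    funext i
    rw [hx]
    rfl
  have e1 : ∑ i, ∑ j, C (Q i j) * X3_L P i * (X3_L P j : MvPolynomial (κ ⊕ ι) ℂ) =
      X3_L P ⬝ᵥ ((Q.map C) *ᵥ X3_L P) := by
    unfold dotProduct mulVec dotProduct
    refine Finset.sum_congr rfl fun i _ => ?_
    rw [Finset.mul_sum]
    refine Finset.sum_congr rfl fun j _ => ?_
    show _ = X3_L P i * (C (Q i j) * X3_L P j)
    ring
  have e2 : (X3_L P : ι → MvPolynomial (κ ⊕ ι) ℂ) ⬝ᵥ ((Q.map C) *ᵥ X3_L P) =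
      x ⬝ᵥ ((P.map C).transpose *ᵥ ((Q.map C) *ᵥ ((P.map C) *ᵥ x))) := by
    rw [hL, dotProduct_mulVec x, vecMul_transpose]
  have e3 : (P.map C).transpose *ᵥ ((Q.map C) *ᵥ ((P.map C) *ᵥ x)) =
      ((P.transpose * Q * P).map (C : ℂ →+* MvPolynomial (κ ⊕ ι) ℂ)) *ᵥ x := by
    rw [mulVec_mulVec, mulVec_mulVec, Matrix.map_mul, Matrix.map_mul, Matrix.transpose_map,
      Matrix.mul_assoc]
  rw [e1, e2, e3, h5, Matrix.diagonal_map (map_zero _)]
  unfold dotProduct
  refine Finset.sum_congr rfl fun i _ => ?_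
  rw [mulVec_diagonal, hx]
  ring

/-- X3.  `ψ (X (inr i)) = ∑ j, C (P i j) * X (inr j)`, `ψ (X (inl j)) = X (inl j)`. -/
theorem exists_aut2 (b : MvPolynomial κ ℂ) (a : ι → MvPolynomial κ ℂ) (Q P P' : Matrix ι ι ℂ)
    (d : ι → ℂ) (h1 : P * P' = 1) (h2 : P' * P = 1)
    (h5 : P.transpose * Q * P = Matrix.diagonal d) :
    ∃ ψ : MvPolynomial (κ ⊕ ι) ℂ ≃ₐ[ℂ] MvPolynomial (κ ⊕ ι) ℂ,
      ψ (QP2 b a Q) = NF2 b (fun j => ∑ i, C (P i j) * a i) d := by
  refine ⟨AlgEquiv.ofAlgHom (X3_hom P) (X3_hom P') (X3_comp P P' h2) (X3_comp P' P h1), ?_⟩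
  show X3_hom P (QP2 b a Q) = _
  unfold QP2 NF2
  rw [map_add, map_add, X3_rename, ← X3_quad P Q d h5, map_sum, map_sum]
  congr 1
  · congr 1
    have e1 : ∀ i, X3_hom P (rename Sum.inl (a i) * X (Sum.inr i) : MvPolynomial (κ ⊕ ι) ℂ) =
        ∑ j, rename Sum.inl (a i) * (C (P i j) * X (Sum.inr j)) := by
      intro i
      rw [map_mul, X3_rename, X3_inr, ← Finset.mul_sum]
      rfl
    rw [Finset.sum_congr rfl fun i _ => e1 i, Finset.sum_comm]
    refine Finset.sum_congr rfl fun j _ => ?_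
    rw [map_sum, Finset.sum_mul]
    refine Finset.sum_congr rfl fun i _ => ?_
    rw [map_mul, rename_C]
    ring
  · refine Finset.sum_congr rfl fun i _ => ?_
    rw [map_sum]
    refine Finset.sum_congr rfl fun j _ => ?_
    rw [map_mul, map_mul, X3_C, X3_inr, X3_inr]

omit [Fintype κ] [DecidableEq κ] [Fintype ι] [DecidableEq ι] in
/-- the endomorphism `X (inr i) ↦ X (inr i) - r i (x)` -/
noncomputable def X4_hom (r : ι → MvPolynomial κ ℂ) :
    MvPolynomial (κ ⊕ ι) ℂ →ₐ[ℂ] MvPolynomial (κ ⊕ ι) ℂ :=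
  aeval (Sum.elim (fun j => X (Sum.inl j)) (fun i => X (Sum.inr i) - rename Sum.inl (r i)))

omit [Fintype κ] [DecidableEq κ] [Fintype ι] [DecidableEq ι] in
theorem X4_hom_inr (r : ι → MvPolynomial κ ℂ) (i : ι) :
    X4_hom r (X (Sum.inr i)) = X (Sum.inr i) - rename Sum.inl (r i) := by
  unfold X4_hom
  rw [aeval_X, Sum.elim_inr]

omit [Fintype κ] [DecidableEq κ] [Fintype ι] [DecidableEq ι] in
theorem X4_hom_inl (r : ι → MvPolynomial κ ℂ) (j : κ) :
    X4_hom r (X (Sum.inl j)) = X (Sum.inl j) := by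
  unfold X4_hom
  rw [aeval_X, Sum.elim_inl]

omit [Fintype κ] [DecidableEq κ] [Fintype ι] [DecidableEq ι] in
theorem X4_hom_rename (r : ι → MvPolynomial κ ℂ) (p : MvPolynomial κ ℂ) :
    X4_hom r (rename Sum.inl p) = rename Sum.inl p := by
  have h : (X4_hom r).comp (rename Sum.inl) = (rename Sum.inl : MvPolynomial κ ℂ →ₐ[ℂ] _) := by
    apply MvPolynomial.algHom_ext
    intro j
    rw [AlgHom.comp_apply, rename_X, X4_hom_inl]
  exact AlgHom.congr_fun h p

omit [Fintype κ] [DecidableEq κ] [Fintype ι] [DecidableEq ι] in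
theorem X4_hom_comp (r s : ι → MvPolynomial κ ℂ) (hrs : ∀ i, s i = - r i) :
    (X4_hom r).comp (X4_hom s) = AlgHom.id ℂ _ := by
  apply MvPolynomial.algHom_ext
  rintro (j | i)
  · rw [AlgHom.comp_apply, X4_hom_inl, X4_hom_inl, AlgHom.id_apply]
  · rw [AlgHom.comp_apply, X4_hom_inr, map_sub, X4_hom_inr, X4_hom_rename, hrs, map_neg,
      AlgHom.id_apply]
    ring

/-- the automorphism `X (inr i) ↦ X (inr i) - r i (x)` -/
noncomputable def X4_eqv (r : ι → MvPolynomial κ ℂ) :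
    MvPolynomial (κ ⊕ ι) ℂ ≃ₐ[ℂ] MvPolynomial (κ ⊕ ι) ℂ :=
  AlgEquiv.ofAlgHom (X4_hom r) (X4_hom (fun i => - r i))
    (X4_hom_comp r _ fun _ => rfl)
    (X4_hom_comp _ _ fun i => (neg_neg (r i)).symm)

/-- X4.  Completing squares: `ψ (X (inr i)) = X (inr i) - C (1 / (2 d i)) * rename inl (a i)` if
`d i ≠ 0`; `b' = b - ∑_{d i ≠ 0} C (1 / (4 d i)) * a_i²`. -/
theorem exists_square2 (b : MvPolynomial κ ℂ) (a : ι → MvPolynomial κ ℂ) (d : ι → ℂ) :
    ∃ (ψ : MvPolynomial (κ ⊕ ι) ℂ ≃ₐ[ℂ] MvPolynomial (κ ⊕ ι) ℂ) (b' : MvPolynomial κ ℂ),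
      ψ (NF2 b a d) = NF2 b' (fun i => if d i = 0 then a i else 0) d := by
  obtain ⟨r, hr0, hr1⟩ : ∃ r : ι → MvPolynomial κ ℂ, (∀ i, d i = 0 → r i = 0) ∧
      (∀ i, d i ≠ 0 → a i = C (2 * d i) * r i) := by
    refine ⟨fun i => if d i = 0 then 0 else C (1 / (2 * d i)) * a i, ?_, ?_⟩
    · intro i hi
      exact if_pos hi
    · intro i hi
      simp only [if_neg hi]
      rw [← mul_assoc, ← C_mul]
      have h8 : 2 * d i * (1 / (2 * d i)) = 1 := by field_simp
      rw [h8, C_1, one_mul]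
  have hψ : ∀ i, X4_eqv r (X (Sum.inr i)) = X (Sum.inr i) - rename Sum.inl (r i) :=
    fun i => X4_hom_inr r i
  have hae : ∀ p : MvPolynomial κ ℂ, X4_eqv r (rename Sum.inl p) = rename Sum.inl p :=
    fun p => X4_hom_rename r p
  refine ⟨X4_eqv r, b - ∑ i, C (d i) * r i ^ 2, ?_⟩
  have hC : ∀ i, (C (d i) : MvPolynomial (κ ⊕ ι) ℂ) = rename Sum.inl (C (d i)) := by
    intro i
    rw [rename_C]
  unfold NF2
  rw [map_add, map_add, map_sum, map_sum, hae]
  have h1 : ∀ i, X4_eqv r (rename Sum.inl (a i) * X (Sum.inr i)) =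
      rename Sum.inl (a i) * (X (Sum.inr i) - rename Sum.inl (r i)) := by
    intro i
    rw [map_mul, hae, hψ]
  have h2 : ∀ i, X4_eqv r (C (d i) * X (Sum.inr i) ^ 2) =
      C (d i) * (X (Sum.inr i) - rename Sum.inl (r i)) ^ 2 := by
    intro i
    rw [map_mul, map_pow, hψ, hC i, hae]
  rw [Finset.sum_congr rfl fun i _ => h1 i, Finset.sum_congr rfl fun i _ => h2 i]
  have h3 : (rename Sum.inl (b - ∑ i, C (d i) * r i ^ 2) : MvPolynomial (κ ⊕ ι) ℂ) =
      rename Sum.inl b - ∑ i, C (d i) * (rename Sum.inl (r i)) ^ 2 := by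
    rw [map_sub, map_sum]
    congr 1
    refine Finset.sum_congr rfl fun i _ => ?_
    rw [map_mul, map_pow, hC i]
  rw [h3]
  have h4 : ∀ i, (rename Sum.inl (a i) : MvPolynomial (κ ⊕ ι) ℂ) *
      (X (Sum.inr i) - rename Sum.inl (r i)) +
      C (d i) * (X (Sum.inr i) - rename Sum.inl (r i)) ^ 2 =
      rename Sum.inl (if d i = 0 then a i else 0) * X (Sum.inr i) + C (d i) * X (Sum.inr i) ^ 2 -
        C (d i) * (rename Sum.inl (r i)) ^ 2 := by
    intro i
    by_cases hi : d i = 0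
    · rw [if_pos hi, hr0 i hi, hi, map_zero, C_0]
      ring
    · have h8 : (rename Sum.inl (C (2 * d i) : MvPolynomial κ ℂ) : MvPolynomial (κ ⊕ ι) ℂ) =
          2 * C (d i) := by
        rw [rename_C, C_mul]
        rfl
      rw [if_neg hi, map_zero, hr1 i hi, map_mul, h8]
      ring
  have h5 := Finset.sum_congr (rfl : (Finset.univ : Finset ι) = Finset.univ) fun i _ => h4 i
  rw [Finset.sum_add_distrib, Finset.sum_sub_distrib, Finset.sum_add_distrib] at h5
  rw [add_assoc, h5]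
  ring

theorem X5A_zero (b : MvPolynomial κ ℂ) (i : ι) :
    pderiv (Sum.inr i) (rename Sum.inl b : MvPolynomial (κ ⊕ ι) ℂ) = 0 := by
  induction b using MvPolynomial.induction_on with
  | C c => simp
  | add p q hp hq => rw [map_add, map_add, hp, hq, add_zero]
  | mul_X p j hp =>
    rw [map_mul, rename_X, Derivation.leibniz, hp, pderiv_X_of_ne (by simp)]
    simp

theorem X5A_X (k i : ι) : pderiv (Sum.inr i) (X (Sum.inr k) : MvPolynomial (κ ⊕ ι) ℂ) =
    if k = i then 1 else 0 := by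
  by_cases h : k = i
  · subst h
    rw [pderiv_X_self, if_pos rfl]
  · rw [pderiv_X_of_ne (fun h' => h (Sum.inr.inj h')), if_neg h]

theorem X5A_lin (p : MvPolynomial κ ℂ) (k i : ι) (x : κ → ℂ) (y : ι → ℂ) :
    eval (Sum.elim x y) (pderiv (Sum.inr i) (rename Sum.inl p * X (Sum.inr k) :
      MvPolynomial (κ ⊕ ι) ℂ)) = if k = i then eval x p else 0 := by
  rw [Derivation.leibniz, X5A_zero, X5A_X]
  by_cases h : k = i
  · simp [h, eval_rename]
  · simp [h]

theorem X5A_quad (c : ℂ) (k j i : ι) (x : κ → ℂ) (y : ι → ℂ) :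
    eval (Sum.elim x y) (pderiv (Sum.inr i) (C c * X (Sum.inr k) * X (Sum.inr j) :
      MvPolynomial (κ ⊕ ι) ℂ)) =
      (if k = i then c * y j else 0) + (if j = i then c * y k else 0) := by
  rw [Derivation.leibniz, Derivation.leibniz, pderiv_C, X5A_X, X5A_X]
  by_cases h : k = i
  · by_cases h' : j = i
    · simp [h, h', mul_comm]
    · simp [h, h', mul_comm]
  · by_cases h' : j = i
    · simp [h, h']
    · simp [h, h']

/-- X5A. -/
theorem eval_pderiv_QP2 (b : MvPolynomial κ ℂ) (a : ι → MvPolynomial κ ℂ) (Q : Matrix ι ι ℂ)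
    (hQ : Q.IsSymm) (x : κ → ℂ) (y : ι → ℂ) (i : ι) :
    eval (Sum.elim x y) (pderiv (Sum.inr i) (QP2 b a Q)) =
      eval x (a i) + 2 * ∑ j, Q i j * y j := by
  unfold QP2
  simp only [map_add, map_sum, X5A_zero, X5A_lin, X5A_quad, map_zero, zero_add,
    Finset.sum_add_distrib, Finset.sum_ite_eq', Finset.mem_univ, if_true]
  have h1 : ∑ k, ∑ j, (if k = i then Q k j * y j else 0) = ∑ j, Q i j * y j := by
    rw [Finset.sum_eq_single i]
    · simp
    · intro k _ hk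
      simp [hk]
    · intro h
      exact absurd (Finset.mem_univ _) h
  have h2 : ∑ k, Q k i * y k = ∑ j, Q i j * y j :=
    Finset.sum_congr rfl fun k _ => by rw [hQ.apply i k]
  rw [h1, h2]
  ring

/-- X5B.  `z_j = -(∑ i, P i j * a_i(x)) / (2 d j)` if `d j ≠ 0`, `0` otherwise; `y = P z`; then
`Pᵀ (a(x) + 2 Q y) = 0`. -/
theorem crit_sub (b : MvPolynomial κ ℂ) (a : ι → MvPolynomial κ ℂ) (Q P P' : Matrix ι ι ℂ)
    (hQ : Q.IsSymm) (d : ι → ℂ) (h1 : P * P' = 1) (h2 : P' * P = 1)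
    (h5 : P.transpose * Q * P = Matrix.diagonal d) :
    {x : κ → ℂ | ∀ j, d j = 0 → eval x (∑ i, C (P i j) * a i) = 0} ⊆ Crit (QP2 b a Q) := by
  intro x hx
  have hx' : ∀ j, d j = 0 → ∑ i, P i j * eval x (a i) = 0 := by
    intro j hj
    have h := hx j hj
    simpa [map_sum] using h
  set A : ι → ℂ := fun i => eval x (a i) with hA
  set z : ι → ℂ := fun j => if d j = 0 then 0 else -(∑ i, P i j * A i) / (2 * d j) with hz
  refine ⟨P.mulVec z, fun i => ?_⟩
  rw [eval_pderiv_QP2 b a Q hQ]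
  have hw : A + (2 : ℂ) • Q.mulVec (P.mulVec z) = 0 := by
    have h3 : P.transpose.mulVec (A + (2 : ℂ) • Q.mulVec (P.mulVec z)) = 0 := by
      rw [Matrix.mulVec_add, Matrix.mulVec_smul, Matrix.mulVec_mulVec, Matrix.mulVec_mulVec, h5]
      funext j
      rw [Pi.add_apply, Pi.smul_apply, Matrix.mulVec_diagonal, Pi.zero_apply, smul_eq_mul]
      have h4 : P.transpose.mulVec A j = ∑ i, P i j * A i := by
        simp [Matrix.mulVec, dotProduct, Matrix.transpose_apply]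
      rw [h4, hz]
      by_cases hd : d j = 0
      · simp only [hd, if_true, mul_zero, add_zero]
        exact hx' j hd
      · simp only [hd, if_false]
        field_simp
        ring
    have h6 : P'.transpose * P.transpose = 1 := by
      rw [← Matrix.transpose_mul, h1, Matrix.transpose_one]
    calc A + (2 : ℂ) • Q.mulVec (P.mulVec z)
        = (1 : Matrix ι ι ℂ).mulVec (A + (2 : ℂ) • Q.mulVec (P.mulVec z)) := by
          rw [Matrix.one_mulVec]
      _ = P'.transpose.mulVec (P.transpose.mulVec (A + (2 : ℂ) • Q.mulVec (P.mulVec z))) := by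
          rw [← h6, ← Matrix.mulVec_mulVec]
      _ = 0 := by rw [h3, Matrix.mulVec_zero]
  have h7 := congrFun hw i
  rw [Pi.add_apply, Pi.smul_apply, Pi.zero_apply, smul_eq_mul] at h7
  exact h7

end Vale.Agent.P295M
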