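import Vale.Agent.P295K.Defs

/-!
# P295, several base variables: definitions and plan (helper87)

`f ∈ ℂ[x_j, y_i : j ∈ κ, i ∈ ι]` with all `∂²f/∂y_i∂y_j` constant:
`f = QP2 b a Q = b(x) + ∑ a_i(x) y_i + ∑ Q_ij y_i y_j`, after a change of coordinates
`NF2 b a d = b(x) + ∑ a_i(x) y_i + ∑ d_i y_i²` with `a_i = 0` if `d_i ≠ 0`.
`Crit f` = set of the `x` such that `y ↦ f(x, y)` has a critical point
(for `NF2`: `{x : a_i(x) = 0 if d_i = 0}`).
Theorem: if `Crit f` is finite and `f` is a stable coordinate, then `f` is a coordinate.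
`Crit f = ∅`: the `a_i` generate the unit ideal, Quillen-Suslin.  `Crit f` finite and nonempty: over
suitable finite fields `K` the fibres of `b` on the nonempty set `{x ∈ K^κ : a_i(x) = 0}` have the same
size (`ff_gen`), but this set has less than `|K|` elements.
-/

namespace Vale.Agent.P295M

open MvPolynomial Vale.Agent.P295K

/-- `b(x) + ∑ a_i(x) y_i + ∑ d_i y_i²` -/
noncomputable def NF2 {R κ ι : Type} [CommRing R] [Fintype ι] (b : MvPolynomial κ R)
    (a : ι → MvPolynomial κ R) (d : ι → R) : MvPolynomial (κ ⊕ ι) R :=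
  rename Sum.inl b + ∑ i, rename Sum.inl (a i) * X (Sum.inr i) + ∑ i, C (d i) * X (Sum.inr i) ^ 2

/-- `b(x) + ∑ a_i(x) y_i + ∑ Q_ij y_i y_j` -/
noncomputable def QP2 {κ ι : Type} [Fintype ι] (b : MvPolynomial κ ℂ)
    (a : ι → MvPolynomial κ ℂ) (Q : Matrix ι ι ℂ) : MvPolynomial (κ ⊕ ι) ℂ :=
  rename Sum.inl b + ∑ i, rename Sum.inl (a i) * X (Sum.inr i)
    + ∑ i, ∑ j, C (Q i j) * X (Sum.inr i) * X (Sum.inr j)

/-- the set of the `x` such that `y ↦ f(x, y)` has a critical point -/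
def Crit {κ ι : Type} (f : MvPolynomial (κ ⊕ ι) ℂ) : Set (κ → ℂ) :=
  {x | ∃ y : ι → ℂ, ∀ i, eval (Sum.elim x y) (pderiv (Sum.inr i) f) = 0}

end Vale.Agent.P295M
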