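import Vale.Agent.P295M.MDefs

namespace Vale.Agent.P295M

open MvPolynomial Vale.Agent.P295K

variable {κ ι : Type} [Fintype κ] [Fintype ι]

theorem X9_rad (a : ι → MvPolynomial κ ℂ) (P : MvPolynomial κ ℂ)
    (hP : ∀ x : κ → ℂ, (∀ i, eval x (a i) = 0) → eval x P = 0) :
    P ∈ (Ideal.span (Set.range a)).radical := by
  rw [← vanishingIdeal_zeroLocus_eq_radical (K := ℂ), mem_vanishingIdeal_iff]
  intro x hx
  rw [zeroLocus_span] at hx
  have h1 : ∀ i, eval x (a i) = 0 := by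
    intro i
    have := hx (a i) ⟨i, rfl⟩
    rw [← coe_aeval_eq_eval]
    exact this
  have h2 := hP x h1
  rw [← coe_aeval_eq_eval] at h2
  exact h2

theorem X9_main (a : ι → MvPolynomial κ ℂ)
    (hV : {x : κ → ℂ | ∀ i, eval x (a i) = 0}.Finite) (j : κ) :
    ∃ (p : Polynomial ℂ) (h : ι → MvPolynomial κ ℂ), p.Monic ∧
      Polynomial.aeval (X j) p = ∑ i, h i * a i := by
  obtain ⟨q, hq⟩ : ∃ q : Polynomial ℂ,
      q = ∏ v ∈ hV.toFinset, (Polynomial.X - Polynomial.C (v j)) := ⟨_, rfl⟩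
  have hqm : q.Monic := by
    rw [hq]
    exact Polynomial.monic_prod_of_monic _ _ fun v _ => Polynomial.monic_X_sub_C (v j)
  have hP : Polynomial.aeval (X j : MvPolynomial κ ℂ) q ∈ (Ideal.span (Set.range a)).radical := by
    refine X9_rad a _ fun x hx => ?_
    have h1 : eval x (Polynomial.aeval (X j : MvPolynomial κ ℂ) q) = q.eval (x j) := by
      have h2 := Polynomial.aeval_algHom_apply (aeval x : MvPolynomial κ ℂ →ₐ[ℂ] ℂ) (X j) q
      rw [aeval_X, Polynomial.coe_aeval_eq_eval] at h2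
      rw [← coe_aeval_eq_eval]
      exact h2.symm
    rw [h1, hq, Polynomial.eval_prod]
    refine Finset.prod_eq_zero (hV.mem_toFinset.2 hx) ?_
    simp
  obtain ⟨N, hN⟩ := Ideal.mem_radical_iff.1 hP
  rw [← map_pow] at hN
  obtain ⟨c, hc⟩ := Ideal.mem_span_range_iff_exists_fun.1 hN
  exact ⟨q ^ N, c, hqm.pow N, hc.symm⟩

end Vale.Agent.P295M
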