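import Vale.Agent.P295M.MDefs
import Vale.Agent.P295M.X9
import Vale.Agent.P295K.FF
import Vale.Agent.P295K.Spread
import Vale.Agent.P295M.CardPf

namespace Vale.Agent.P295M

open MvPolynomial Vale.Agent.P295K

variable {κ ι : Type} [Fintype κ] [DecidableEq κ] [Fintype ι] [DecidableEq ι]

theorem X6_fst {α β L : Type} (F : α → L) (c : L) :
    Nat.card {p : α × β // F p.1 = c} = Nat.card {a // F a = c} * Nat.card β := by
  rw [← Nat.card_prod]
  exact Nat.card_congr (Equiv.prodSubtypeFstEquivSubtypeProd (p := fun a => F a = c))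

theorem X6_prod {σ K X : Type} [Fintype σ] [Field K] [Finite K] (h2 : (2 : K) ≠ 0)
    (b : X → K) (a : σ → X → K) (d : σ → K) (hd : ∀ i, d i ≠ 0 → ∀ x, a i x = 0)
    (h : EqFib (fun z : {z : X × (σ → K) // (fun i => a i z.1 + 2 * d i * z.2 i) = 0} =>
      b z.1.1 - ∑ i, d i * z.1.2 i ^ 2)) :
    EqFib (fun x : {x : X // ∀ i, a i x = 0} => b x) := by
  have hiff : ∀ (x : X) (u : σ → K), (fun i => a i x + 2 * d i * u i) = 0 ↔
      (∀ i, a i x = 0) ∧ ∀ i, d i ≠ 0 → u i = 0 := by
    intro x u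
    constructor
    · intro h
      have h' : ∀ i, a i x + 2 * d i * u i = 0 := fun i => congrFun h i
      have h1 : ∀ i, a i x = 0 := by
        intro i
        by_cases hdi : d i = 0
        · have := h' i
          simpa [hdi] using this
        · exact hd i hdi x
      refine ⟨h1, fun i hdi => ?_⟩
      have := h' i
      rw [h1 i, zero_add] at this
      rcases mul_eq_zero.1 this with h3 | h3
      · exact absurd h3 (mul_ne_zero h2 hdi)
      · exact h3
    · rintro ⟨h1, h3⟩
      funext i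
      change a i x + 2 * d i * u i = 0
      rw [h1 i]
      by_cases hdi : d i = 0
      · simp [hdi]
      · simp [h3 i hdi]
  let E : {z : X × (σ → K) // (fun i => a i z.1 + 2 * d i * z.2 i) = 0} ≃
      {x : X // ∀ i, a i x = 0} × {u : σ → K // ∀ i, d i ≠ 0 → u i = 0} :=
    { toFun := fun z => (⟨z.1.1, ((hiff _ _).1 z.2).1⟩, ⟨z.1.2, ((hiff _ _).1 z.2).2⟩)
      invFun := fun q => ⟨(q.1.1, q.2.1), (hiff _ _).2 ⟨q.1.2, q.2.2⟩⟩
      left_inv := fun z => rfl
      right_inv := fun q => rfl }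
  have h3 : (fun z : {z : X × (σ → K) // (fun i => a i z.1 + 2 * d i * z.2 i) = 0} =>
      b z.1.1 - ∑ i, d i * z.1.2 i ^ 2) = fun z => (fun q : {x : X // ∀ i, a i x = 0} ×
        {u : σ → K // ∀ i, d i ≠ 0 → u i = 0} => b q.1) (E z) := by
    funext z
    have h4 : ∑ i, d i * z.1.2 i ^ 2 = 0 := by
      refine Finset.sum_eq_zero fun i _ => ?_
      by_cases hdi : d i = 0
      · rw [hdi, zero_mul]
      · rw [((hiff _ _).1 z.2).2 i hdi]
        ring
    rw [h4, sub_zero]
    rfl
  rw [h3] at h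
  have h5 := (eqFib_comp_equiv E (F := fun q : {x : X // ∀ i, a i x = 0} ×
        {u : σ → K // ∀ i, d i ≠ 0 → u i = 0} => b q.1)).1 h
  have : Nonempty {u : σ → K // ∀ i, d i ≠ 0 → u i = 0} := ⟨⟨0, fun _ _ => rfl⟩⟩
  have h6 : 0 < Nat.card {u : σ → K // ∀ i, d i ≠ 0 → u i = 0} := Nat.card_pos
  intro c c'
  have h7 := h5 c c'
  have e1 := X6_fst (β := {u : σ → K // ∀ i, d i ≠ 0 → u i = 0})
    (fun x : {x : X // ∀ i, a i x = 0} => b x) c
  have e2 := X6_fst (β := {u : σ → K // ∀ i, d i ≠ 0 → u i = 0})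
    (fun x : {x : X // ∀ i, a i x = 0} => b x) c'
  rw [e1, e2] at h7
  exact Nat.eq_of_mul_eq_mul_right h6 h7

omit [Fintype κ] [DecidableEq κ] in
/-- X6.  Compare `ff` and `ff_prod` in P295K/FF.lean (there `X = K`). -/
theorem ff_gen {K X : Type} [Field K] [Finite K] [Finite X] (h2 : (2 : K) ≠ 0) (b : X → K)
    (a : ι → X → K) (d : ι → K) (hd : ∀ i, d i ≠ 0 → ∀ x, a i x = 0)
    (h : EqFib (fun p : X × (ι → K) => b p.1 + ∑ i, a i p.1 * p.2 i + ∑ i, d i * p.2 i ^ 2)) :
    EqFib (fun x : {x : X // ∀ i, a i x = 0} => b x) := by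
  have h3 := ff_sub _ (fun w : ι → K => ∑ i, d i * w i ^ 2) h
  let E : (X × (ι → K)) × (ι → K) ≃ (X × (ι → K)) × (ι → K) :=
    { toFun := fun q => ((q.1.1, q.2), q.2 - q.1.2)
      invFun := fun q => ((q.1.1, q.1.2 - q.2), q.1.2)
      left_inv := by
        rintro ⟨⟨x, u⟩, y⟩
        simp
      right_inv := by
        rintro ⟨⟨x, u⟩, y⟩
        simp }
  have h4 := (eqFib_comp_equiv E).2 h3
  refine X6_prod h2 b a d hd (ff_lin (fun z : X × (ι → K) => b z.1 - ∑ i, d i * z.2 i ^ 2)
    (fun z : X × (ι → K) => fun i => a i z.1 + 2 * d i * z.2 i) ?_)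
  have h5 : (fun p : (X × (ι → K)) × (ι → K) => (b p.1.1 - ∑ i, d i * p.1.2 i ^ 2) +
      ∑ i, (a i p.1.1 + 2 * d i * p.1.2 i) * p.2 i) = fun q =>
      (fun p : (X × (ι → K)) × (ι → K) =>
        (b p.1.1 + ∑ i, a i p.1.1 * p.1.2 i + ∑ i, d i * p.1.2 i ^ 2) -
          ∑ i, d i * p.2 i ^ 2) (E q) := by
    funext ⟨⟨x, u⟩, y⟩
    change (b x - ∑ i, d i * u i ^ 2) + ∑ i, (a i x + 2 * d i * u i) * y i =
      (b x + ∑ i, a i x * y i + ∑ i, d i * y i ^ 2) - ∑ i, d i * (y - u) i ^ 2
    have e1 : ∑ i, (a i x + 2 * d i * u i) * y i =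
        ∑ i, a i x * y i + ∑ i, (d i * y i ^ 2 - d i * (y - u) i ^ 2 + d i * u i ^ 2) := by
      rw [← Finset.sum_add_distrib]
      refine Finset.sum_congr rfl fun i _ => ?_
      rw [Pi.sub_apply]
      ring
    rw [e1, Finset.sum_add_distrib, Finset.sum_sub_distrib]
    ring
  rw [h5]
  exact h4

/-- X7. -/
theorem map_NF2 {R R' : Type} [CommRing R] [CommRing R'] (θ : R →+* R') (b : MvPolynomial κ R)
    (a : ι → MvPolynomial κ R) (d : ι → R) :
    map θ (NF2 b a d) = NF2 (map θ b) (fun i => map θ (a i)) (fun i => θ (d i)) := by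
  unfold NF2
  rw [map_add, map_add, map_rename, map_sum, map_sum]
  congr 1
  · congr 1
    refine Finset.sum_congr rfl fun i _ => ?_
    rw [map_mul, map_rename, map_X]
  · refine Finset.sum_congr rfl fun i _ => ?_
    rw [map_mul, map_pow, map_C, map_X]

theorem eval_NF2 {R : Type} [CommRing R] (b : MvPolynomial κ R) (a : ι → MvPolynomial κ R)
    (d : ι → R) (x : κ → R) (y : ι → R) :
    eval (Sum.elim x y) (NF2 b a d) = eval x b + ∑ i, eval x (a i) * y i + ∑ i, d i * y i ^ 2 := by
  unfold NF2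
  rw [map_add, map_add, eval_rename, Sum.elim_comp_inl, map_sum, map_sum]
  congr 1
  · congr 1
    refine Finset.sum_congr rfl fun i _ => ?_
    rw [map_mul, eval_rename, Sum.elim_comp_inl, eval_X, Sum.elim_inr]
  · refine Finset.sum_congr rfl fun i _ => ?_
    rw [map_mul, map_pow, eval_C, eval_X, Sum.elim_inr]

/-- X8.  Compare `reduction` in P295K/Neg.lean; `EqFib` on `κ ⊕ ι → K` and on `(κ → K) × (ι → K)`
(`Equiv.sumArrowEquivProdArrow`, `eqFib_comp_equiv`), `ff_gen` with `X = κ → K`. -/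
theorem reduction2 (b : MvPolynomial κ ℂ) (a : ι → MvPolynomial κ ℂ) (d : ι → ℂ)
    (hd : ∀ i, d i ≠ 0 → a i = 0) (hs : IsStableCoord (NF2 b a d)) (S : Finset ℂ) :
    ∃ (A : Subring ℂ) (K : Type) (_ : Field K) (_ : Finite K) (θ : A →+* K)
      (b' : MvPolynomial κ A) (a' : ι → MvPolynomial κ A), (∀ s ∈ S, s ∈ A) ∧
      map A.subtype b' = b ∧ (∀ i, map A.subtype (a' i) = a i) ∧
      EqFib (fun x : {x : κ → K // ∀ i, eval x (map θ (a' i)) = 0} =>
        eval (x : κ → K) (map θ b')) := by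
  obtain ⟨T, hT⟩ : ∃ T : Finset ℂ, T = S ∪ ({(1 / 2 : ℂ)} ∪
      (b.support.image (fun s => coeff s b) ∪
      (Finset.univ.biUnion (fun i => (a i).support.image (fun s => coeff s (a i))) ∪
        Finset.univ.image d))) := ⟨_, rfl⟩
  obtain ⟨A, K, hK1, hK2, θ, hA, hfib⟩ := spread hs T
  have hS : ∀ s ∈ S, s ∈ A := fun s h => hA s (by
    rw [hT]
    exact Finset.mem_union_left _ h)
  have hhalf : (1 / 2 : ℂ) ∈ A := hA _ (by
    rw [hT]
    exact Finset.mem_union_right _ (Finset.mem_union_left _ (Finset.mem_singleton_self _)))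
  have hbc : ∀ n, coeff n b ∈ A := by
    intro n
    by_cases h : coeff n b = 0
    · rw [h]
      exact A.zero_mem
    · apply hA
      rw [hT]
      refine Finset.mem_union_right _ (Finset.mem_union_right _ (Finset.mem_union_left _ ?_))
      exact Finset.mem_image.2 ⟨n, mem_support_iff.2 h, rfl⟩
  have hac : ∀ i n, coeff n (a i) ∈ A := by
    intro i n
    by_cases h : coeff n (a i) = 0
    · rw [h]
      exact A.zero_mem
    · apply hA
      rw [hT]
      refine Finset.mem_union_right _ (Finset.mem_union_right _ (Finset.mem_union_right _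
        (Finset.mem_union_left _ ?_)))
      exact Finset.mem_biUnion.2 ⟨i, Finset.mem_univ i,
        Finset.mem_image.2 ⟨n, mem_support_iff.2 h, rfl⟩⟩
  have hdc : ∀ i, d i ∈ A := by
    intro i
    apply hA
    rw [hT]
    refine Finset.mem_union_right _ (Finset.mem_union_right _ (Finset.mem_union_right _
      (Finset.mem_union_right _ ?_)))
    exact Finset.mem_image.2 ⟨i, Finset.mem_univ i, rfl⟩
  obtain ⟨b', hb'⟩ := exists_lift A b hbc
  choose a' ha' using fun i => exists_lift A (a i) (hac i)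
  obtain ⟨d', hd'⟩ : ∃ d' : ι → A, ∀ i, A.subtype (d' i) = d i :=
    ⟨fun i => ⟨d i, hdc i⟩, fun _ => rfl⟩
  have hinj : Function.Injective A.subtype := Subtype.coe_injective
  have hpinj : Function.Injective (map A.subtype : MvPolynomial κ A →+* MvPolynomial κ ℂ) :=
    MvPolynomial.map_injective _ hinj
  refine ⟨A, K, hK1, hK2, θ, b', a', hS, hb', ha', ?_⟩
  have hg : map A.subtype (NF2 b' a' d') = NF2 b a d := by
    rw [map_NF2, hb']
    simp only [ha', hd']
  have h1 := hfib _ hg
  have h2 : (2 : K) ≠ 0 := by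
    intro h0
    have h3 : (⟨1 / 2, hhalf⟩ : A) * 2 = 1 := by
      apply Subtype.ext
      show (1 / 2 : ℂ) * 2 = 1
      norm_num
    have h4 := congrArg θ h3
    rw [map_mul, map_ofNat, h0, mul_zero, map_one] at h4
    exact zero_ne_one h4
  have haz : ∀ i, a i = 0 → a' i = 0 := fun i h => hpinj (by rw [ha', h, map_zero])
  refine ff_gen h2 (fun x : κ → K => eval x (map θ b')) (fun i x => eval x (map θ (a' i)))
    (fun i => θ (d' i)) ?_ ?_
  · intro i hi x
    show eval x (map θ (a' i)) = 0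
    have h6 : d i ≠ 0 := by
      intro h7
      apply hi
      have h5 : d' i = 0 := hinj (by rw [hd', h7, map_zero])
      show θ (d' i) = 0
      rw [h5, map_zero]
    rw [haz i (hd i h6), map_zero, map_zero]
  · have h8 := (eqFib_comp_equiv (Equiv.sumArrowEquivProdArrow κ ι K).symm).2 h1
    have h9 : (fun p : (κ → K) × (ι → K) =>
        eval ((Equiv.sumArrowEquivProdArrow κ ι K).symm p) (map θ (NF2 b' a' d'))) =
        fun p : (κ → K) × (ι → K) => eval p.1 (map θ b') +
          ∑ i, eval p.1 (map θ (a' i)) * p.2 i + ∑ i, θ (d' i) * p.2 i ^ 2 := by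
      funext p
      rw [map_NF2]
      exact eval_NF2 _ _ _ p.1 p.2
    rw [h9] at h8
    exact h8

/-- X9.  Nullstellensatz: `∏_{v ∈ V} (X_j - v_j)` vanishes on `V`, so a power of it is in the ideal
generated by the `a i`. -/
theorem exists_univariate_rel (a : ι → MvPolynomial κ ℂ)
    (hV : {x : κ → ℂ | ∀ i, eval x (a i) = 0}.Finite) (j : κ) :
    ∃ (p : Polynomial ℂ) (h : ι → MvPolynomial κ ℂ), p.Monic ∧
      Polynomial.aeval (X j) p = ∑ i, h i * a i := by
  exact X9_main a hV j

/-- X12.  Weak Nullstellensatz. -/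
theorem exists_one_eq (a : ι → MvPolynomial κ ℂ) (hV : {x : κ → ℂ | ∀ i, eval x (a i) = 0} = ∅) :
    ∃ c : ι → MvPolynomial κ ℂ, ∑ i, c i * a i = 1 := by
  have h1 : zeroLocus ℂ (Ideal.span (Set.range a)) = ∅ := by
    rw [zeroLocus_span, ← hV]
    ext x
    simp only [Set.mem_ofPred_eq, Set.forall_mem_range]
    refine forall_congr' fun i => ?_
    rw [← MvPolynomial.aeval_eq_eval x]
  have h2 := vanishingIdeal_zeroLocus_eq_radical (K := ℂ) (Ideal.span (Set.range a))
  rw [h1, vanishingIdeal_empty] at h2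
  have h3 : Ideal.span (Set.range a) = ⊤ := Ideal.radical_eq_top.1 h2.symm
  have h4 : (1 : MvPolynomial κ ℂ) ∈ Ideal.span (Set.range a) := by
    rw [h3]
    exact Submodule.mem_top
  obtain ⟨c, hc⟩ := Ideal.mem_span_range_iff_exists_fun.1 h4
  exact ⟨c, hc⟩

omit [DecidableEq κ] [DecidableEq ι] in
/-- X10A.  The zero set of the `a i` in `K^κ` lies in the product of the zero sets of the `p j`. -/
theorem card_zero_le {K : Type} [Field K] [Finite K] (a : ι → MvPolynomial κ K)
    (p : κ → Polynomial K) (h : κ → ι → MvPolynomial κ K) (hp : ∀ j, p j ≠ 0)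
    (hrel : ∀ j, Polynomial.aeval (X j) (p j) = ∑ i, h j i * a i) :
    Nat.card {x : κ → K // ∀ i, eval x (a i) = 0} ≤ ∏ j, (p j).natDegree := by
  exact CardPf.card_zero_le a p h hp hrel

private theorem X10_map_aeval {R R' : Type} [CommRing R] [CommRing R'] (θ : R →+* R') (o : κ)
    (p : Polynomial R) : map θ (Polynomial.aeval (X o : MvPolynomial κ R) p) =
      Polynomial.aeval (X o : MvPolynomial κ R') (p.map θ) := by
  induction p using Polynomial.induction_on' with
  | add p q hp hq => rw [map_add, map_add, Polynomial.map_add, map_add, hp, hq]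
  | monomial n c =>
    rw [Polynomial.map_monomial, Polynomial.aeval_monomial, Polynomial.aeval_monomial, map_mul,
      map_pow, map_X]
    show map θ (C c) * X o ^ n = C (θ c) * X o ^ n
    rw [map_C]

private theorem X10_lt_card {A K : Type} [CommRing A] [Field K] [Finite K] (θ : A →+* K) (N : ℕ)
    (z : A) (hz : z * ((N.factorial : ℕ) : A) = 1) : N < Nat.card K := by
  have hfac : ((N.factorial : ℕ) : K) ≠ 0 := by
    intro h
    have h2 := congrArg θ hz
    rw [map_mul, map_natCast, h, mul_zero, map_one] at h2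
    exact zero_ne_one h2
  have _ : Fintype K := Fintype.ofFinite K
  obtain ⟨p, hp⟩ := CharP.exists K
  have hpp : p.Prime := CharP.char_is_prime K p
  have h1 : ¬ p ∣ N.factorial := fun h => hfac ((CharP.cast_eq_zero_iff K p _).2 h)
  rw [hpp.dvd_factorial, not_le] at h1
  obtain ⟨k, -, hk⟩ := FiniteField.card K p
  rw [Nat.card_eq_fintype_card, hk]
  exact h1.trans_le (Nat.le_self_pow k.pos.ne' p)

/-- X10.  `v` = a common zero; `p j`, `h j` from `exists_univariate_rel`; `N = ∏ natDegree (p j)`;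
`S` = the `v j`, `(N !)⁻¹`, all coefficients of the `p j` and of the `h j i`.  In `K`: the zero set `Z` of
the `a i` contains the reduction of `v`, has at most `N < char K ≤ |K|` elements (`card_zero_le`; the
relations hold over `A` since `A → ℂ` is injective), but `|K|` divides `|Z|` (`card_eq_of_eqFib`).
Compare `neg_root` in P295K/Neg.lean. -/
theorem neg_finite (b : MvPolynomial κ ℂ) (a : ι → MvPolynomial κ ℂ) (d : ι → ℂ)
    (hd : ∀ i, d i ≠ 0 → a i = 0) (hV : {x : κ → ℂ | ∀ i, eval x (a i) = 0}.Finite)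
    (v : κ → ℂ) (hv : ∀ i, eval v (a i) = 0) : ¬ IsStableCoord (NF2 b a d) := by
  intro hs
  choose p h hp hrel using fun j => exists_univariate_rel a hV j
  obtain ⟨N, hN⟩ : ∃ N, N = ∏ j, (p j).natDegree := ⟨_, rfl⟩
  obtain ⟨S, hS⟩ : ∃ S : Finset ℂ, S = Finset.univ.image v ∪ ({((N.factorial : ℕ) : ℂ)⁻¹} ∪
      (Finset.univ.biUnion (fun j => (p j).support.image (p j).coeff) ∪
      Finset.univ.biUnion (fun j => Finset.univ.biUnion fun i =>
        (h j i).support.image (fun s => coeff s (h j i))))) := ⟨_, rfl⟩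
  obtain ⟨A, K, hK1, hK2, θ, b', a', hA, hb', ha', hfib⟩ := reduction2 b a d hd hs S
  have hinj : Function.Injective A.subtype := Subtype.coe_injective
  have hpinj : Function.Injective (map A.subtype : MvPolynomial κ A →+* MvPolynomial κ ℂ) :=
    MvPolynomial.map_injective _ hinj
  have hvA : ∀ j, v j ∈ A := fun j => hA _ (by
    rw [hS]
    exact Finset.mem_union_left _ (Finset.mem_image.2 ⟨j, Finset.mem_univ j, rfl⟩))
  have hfA : ((N.factorial : ℕ) : ℂ)⁻¹ ∈ A := hA _ (by
    rw [hS]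
    exact Finset.mem_union_right _ (Finset.mem_union_left _ (Finset.mem_singleton_self _)))
  have hpA : ∀ j n, (p j).coeff n ∈ A := by
    intro j n
    by_cases h0 : (p j).coeff n = 0
    · rw [h0]
      exact A.zero_mem
    · apply hA
      rw [hS]
      refine Finset.mem_union_right _ (Finset.mem_union_right _ (Finset.mem_union_left _ ?_))
      exact Finset.mem_biUnion.2 ⟨j, Finset.mem_univ j,
        Finset.mem_image.2 ⟨n, Polynomial.mem_support_iff.2 h0, rfl⟩⟩
  have hhA : ∀ j i s, coeff s (h j i) ∈ A := by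
    intro j i s
    by_cases h0 : coeff s (h j i) = 0
    · rw [h0]
      exact A.zero_mem
    · apply hA
      rw [hS]
      refine Finset.mem_union_right _ (Finset.mem_union_right _ (Finset.mem_union_right _ ?_))
      exact Finset.mem_biUnion.2 ⟨j, Finset.mem_univ j, Finset.mem_biUnion.2 ⟨i,
        Finset.mem_univ i, Finset.mem_image.2 ⟨s, mem_support_iff.2 h0, rfl⟩⟩⟩
  have hlift : ∀ j, ∃ p' : Polynomial A, p'.map A.subtype = p j := by
    intro j
    have h1 : p j ∈ Polynomial.lifts A.subtype := by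
      rw [Polynomial.lifts_iff_coeff_lifts]
      intro n
      exact ⟨⟨(p j).coeff n, hpA j n⟩, rfl⟩
    exact (Polynomial.mem_lifts (p j)).1 h1
  choose p' hp' using hlift
  choose h' hh' using fun j i => exists_lift A (h j i) (hhA j i)
  have hrel' : ∀ j, Polynomial.aeval (X j) (p' j) = ∑ i, h' j i * a' i := by
    intro j
    apply hpinj
    rw [X10_map_aeval, hp', hrel, map_sum]
    refine Finset.sum_congr rfl fun i _ => ?_
    rw [map_mul, hh', ha']
  have hmon : ∀ j, (p' j).Monic := fun j =>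
    Polynomial.monic_of_injective hinj (by rw [hp']; exact hp j)
  have hrelK : ∀ j, Polynomial.aeval (X j : MvPolynomial κ K) ((p' j).map θ) =
      ∑ i, map θ (h' j i) * map θ (a' i) := by
    intro j
    rw [← X10_map_aeval, hrel', map_sum]
    refine Finset.sum_congr rfl fun i _ => ?_
    rw [map_mul]
  have hle := card_zero_le (fun i => map θ (a' i)) (fun j => (p' j).map θ)
    (fun j i => map θ (h' j i)) (fun j => ((hmon j).map θ).ne_zero) hrelK
  have hdeg : (∏ j, ((p' j).map θ).natDegree) = N := by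
    rw [hN]
    refine Finset.prod_congr rfl fun j _ => ?_
    rw [(hmon j).natDegree_map, ← hp' j, (hmon j).natDegree_map]
  rw [hdeg] at hle
  have hlt : N < Nat.card K := X10_lt_card θ N ⟨_, hfA⟩ (by
    apply Subtype.ext
    show ((N.factorial : ℕ) : ℂ)⁻¹ * (((N.factorial : ℕ) : A) : ℂ) = 1
    rw [Subring.coe_natCast]
    exact inv_mul_cancel₀ (Nat.cast_ne_zero.2 (Nat.factorial_ne_zero N)))
  obtain ⟨v', hv'⟩ : ∃ v' : κ → A, ∀ j, A.subtype (v' j) = v j :=
    ⟨fun j => ⟨v j, hvA j⟩, fun _ => rfl⟩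
  have hz : ∀ i, eval (fun j => θ (v' j)) (map θ (a' i)) = 0 := by
    intro i
    have h1 : eval v' (a' i) = 0 := by
      apply hinj
      have h2 : A.subtype (eval v' (a' i)) = eval (fun j => A.subtype (v' j))
          (map A.subtype (a' i)) := by
        rw [eval_map]
        exact (eval₂_comp_left A.subtype (RingHom.id A) v' (a' i))
      rw [h2, ha', map_zero]
      simp only [hv']
      exact hv i
    have h3 : eval (fun j => θ (v' j)) (map θ (a' i)) = θ (eval v' (a' i)) := by
      rw [eval_map]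
      exact (eval₂_comp_left θ (RingHom.id A) v' (a' i)).symm
    rw [h3, h1, map_zero]
  have hpos : 0 < Nat.card {x : κ → K // ∀ i, eval x (map θ (a' i)) = 0} := by
    have _ : Nonempty {x : κ → K // ∀ i, eval x (map θ (a' i)) = 0} := ⟨⟨_, hz⟩⟩
    exact Nat.card_pos
  have hcard := card_eq_of_eqFib hfib 0
  have hdvd : Nat.card K ∣ Nat.card {x : κ → K // ∀ i, eval x (map θ (a' i)) = 0} :=
    ⟨_, hcard.symm⟩
  exact absurd (Nat.le_of_dvd hpos hdvd) (by omega)

end Vale.Agent.P295M
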