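import Vale.Agent.P295M.MDefs
import Vale.Agent.P295K.Pos
import Vale.Agent.P295Q.LocGlob
import Vale.Agent.P295K.Inv

namespace Vale.Agent.P295M

open MvPolynomial Vale.Agent.P295K Vale.Agent.P295Q

variable {ι : Type} [Fintype ι] [DecidableEq ι]

/-- the substitution of `exists_matrix_aut` -/
noncomputable def X11A_s {κ : Type} (d : ι → ℂ)
    (U : Matrix {i // d i = 0} {i // d i = 0} (MvPolynomial κ ℂ)) :
    κ ⊕ ι → MvPolynomial (κ ⊕ ι) ℂ :=
  Sum.elim (fun k => X (Sum.inl k)) fun i =>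
    if h : d i = 0 then ∑ j : {i // d i = 0}, rename Sum.inl (U ⟨i, h⟩ j) * X (Sum.inr j.1)
    else X (Sum.inr i)

omit [DecidableEq ι] in
theorem X11A_base {κ : Type} (d : ι → ℂ)
    (U : Matrix {i // d i = 0} {i // d i = 0} (MvPolynomial κ ℂ)) (g : MvPolynomial κ ℂ) :
    aeval (X11A_s d U) (rename Sum.inl g : MvPolynomial (κ ⊕ ι) ℂ) = rename Sum.inl g := by
  rw [aeval_rename]
  have h : X11A_s d U ∘ Sum.inl = (X ∘ Sum.inl : κ → MvPolynomial (κ ⊕ ι) ℂ) := rfl
  rw [h, ← aeval_rename, aeval_X_left_apply]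

omit [DecidableEq ι] in
theorem X11A_pos {κ : Type} (d : ι → ℂ)
    (U : Matrix {i // d i = 0} {i // d i = 0} (MvPolynomial κ ℂ)) (i : ι) (h : d i = 0) :
    aeval (X11A_s d U) (X (Sum.inr i) : MvPolynomial (κ ⊕ ι) ℂ) =
      ∑ j : {i // d i = 0}, rename Sum.inl (U ⟨i, h⟩ j) * X (Sum.inr j.1) := by
  rw [aeval_X]
  simp only [X11A_s, Sum.elim_inr]
  rw [dif_pos h]

omit [DecidableEq ι] in
theorem X11A_neg {κ : Type} (d : ι → ℂ)
    (U : Matrix {i // d i = 0} {i // d i = 0} (MvPolynomial κ ℂ)) (i : ι) (h : d i ≠ 0) :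
    aeval (X11A_s d U) (X (Sum.inr i) : MvPolynomial (κ ⊕ ι) ℂ) = X (Sum.inr i) := by
  rw [aeval_X]
  simp only [X11A_s, Sum.elim_inr]
  rw [dif_neg h]

theorem X11A_comp {κ : Type} (d : ι → ℂ)
    (U U' : Matrix {i // d i = 0} {i // d i = 0} (MvPolynomial κ ℂ)) (h1 : U * U' = 1) :
    (aeval (X11A_s d U')).comp (aeval (X11A_s d U)) = AlgHom.id ℂ (MvPolynomial (κ ⊕ ι) ℂ) := by
  apply MvPolynomial.algHom_ext
  intro k
  rw [AlgHom.comp_apply, AlgHom.id_apply]
  rcases k with k | i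
  · have h := X11A_base (κ := κ) d U (X k)
    have h' := X11A_base (κ := κ) d U' (X k)
    rw [rename_X] at h h'
    rw [h, h']
  · by_cases h : d i = 0
    · rw [X11A_pos d U i h, map_sum]
      have e : ∀ j : {i // d i = 0}, aeval (X11A_s d U')
          (rename Sum.inl (U ⟨i, h⟩ j) * X (Sum.inr j.1) : MvPolynomial (κ ⊕ ι) ℂ) =
          ∑ l : {i // d i = 0}, rename Sum.inl (U ⟨i, h⟩ j * U' j l) * X (Sum.inr l.1) := by
        intro j
        rw [map_mul, X11A_base, X11A_pos d U' j.1 j.2, Finset.mul_sum]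
        refine Finset.sum_congr rfl fun l _ => ?_
        rw [map_mul, mul_assoc]
      rw [Finset.sum_congr rfl fun j _ => e j, Finset.sum_comm]
      have e2 : ∀ l : {i // d i = 0}, ∑ j : {i // d i = 0},
          rename Sum.inl (U ⟨i, h⟩ j * U' j l) * (X (Sum.inr l.1) : MvPolynomial (κ ⊕ ι) ℂ) =
          if l = ⟨i, h⟩ then X (Sum.inr i) else 0 := by
        intro l
        rw [← Finset.sum_mul, ← map_sum, ← Matrix.mul_apply, h1, Matrix.one_apply]
        by_cases hl : l = ⟨i, h⟩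
        · subst hl
          rw [if_pos rfl, if_pos rfl, map_one, one_mul]
        · rw [if_neg hl, if_neg (Ne.symm hl), map_zero, zero_mul]
      rw [Finset.sum_congr rfl fun l _ => e2 l, Finset.sum_ite_eq']
      simp
    · rw [X11A_neg d U i h, X11A_neg d U' i h]

omit [DecidableEq ι] in
theorem X11A_sum {M : Type} [AddCommMonoid M] (d : ι → ℂ) (F : ι → M)
    (h : ∀ i, d i ≠ 0 → F i = 0) : ∑ i, F i = ∑ i : {i // d i = 0}, F i.1 := by
  classical
  have h1 : ∑ i ∈ Finset.univ.filter (fun i => d i = 0), F i = ∑ i, F i := by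
    refine Finset.sum_filter_of_ne fun i _ hi => ?_
    by_contra hc
    exact hi (h i hc)
  rw [← h1]
  exact Finset.sum_subtype _ (by simp) F

/-- X11A.  `y_i ↦ ∑ j, rename inl (U i j) * y_j` for `i` with `d i = 0`, `y_i ↦ y_i` for `d i ≠ 0`
(extend `U`, `U'` by the identity). -/
theorem exists_matrix_aut {κ : Type} (b : MvPolynomial κ ℂ) (a : ι → MvPolynomial κ ℂ) (d : ι → ℂ)
    (hd : ∀ i, d i ≠ 0 → a i = 0) (U U' : Matrix {i // d i = 0} {i // d i = 0} (MvPolynomial κ ℂ))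
    (h1 : U * U' = 1) (h2 : U' * U = 1) :
    ∃ ψ : MvPolynomial (κ ⊕ ι) ℂ ≃ₐ[ℂ] MvPolynomial (κ ⊕ ι) ℂ,
      ψ (NF2 b a d) = NF2 b (fun j => if h : d j = 0 then ∑ i, U i ⟨j, h⟩ * a i else 0) d := by
  refine ⟨AlgEquiv.ofAlgHom (aeval (X11A_s d U)) (aeval (X11A_s d U'))
    (X11A_comp d U' U h2) (X11A_comp d U U' h1), ?_⟩
  change aeval (X11A_s d U) (NF2 b a d) = _
  unfold NF2
  rw [map_add, map_add, X11A_base, map_sum, map_sum]
  congr 1
  · congr 1
    have e1 : ∀ i, aeval (X11A_s d U)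
        (rename Sum.inl (a i) * X (Sum.inr i) : MvPolynomial (κ ⊕ ι) ℂ) =
        rename Sum.inl (a i) * aeval (X11A_s d U) (X (Sum.inr i) : MvPolynomial (κ ⊕ ι) ℂ) := by
      intro i
      rw [map_mul, X11A_base]
    rw [Finset.sum_congr rfl fun i _ => e1 i]
    rw [X11A_sum d _ fun i hi => by rw [hd i hi, map_zero, zero_mul]]
    rw [X11A_sum d (fun j => rename Sum.inl
      (if h : d j = 0 then ∑ i : {i // d i = 0}, U i ⟨j, h⟩ * a i else 0) *
      (X (Sum.inr j) : MvPolynomial (κ ⊕ ι) ℂ)) fun i hi => by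
        rw [dif_neg hi, map_zero, zero_mul]]
    have e2 : ∀ i : {i // d i = 0}, rename Sum.inl (a i.1) *
        aeval (X11A_s d U) (X (Sum.inr i.1) : MvPolynomial (κ ⊕ ι) ℂ) =
        ∑ j : {i // d i = 0}, rename Sum.inl (a i.1) * (rename Sum.inl (U i j) * X (Sum.inr j.1)) := by
      intro i
      rw [X11A_pos d U i.1 i.2, Finset.mul_sum]
    rw [Finset.sum_congr rfl fun i _ => e2 i, Finset.sum_comm]
    refine Finset.sum_congr rfl fun j _ => ?_
    rw [dif_pos j.2, map_sum, Finset.sum_mul]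
    refine Finset.sum_congr rfl fun i _ => ?_
    rw [map_mul]
    ring
  · refine Finset.sum_congr rfl fun i _ => ?_
    rw [map_mul, map_pow]
    by_cases h : d i = 0
    · rw [h]
      simp
    · rw [X11A_neg d U i h]
      congr 1
      simp [algebraMap_eq]

/-- X11B.  `NF2 = g + X (inr i)` where `g` does not involve `X (inr i)`. -/
theorem coord_of_single2 {κ : Type} (b : MvPolynomial κ ℂ) (a : ι → MvPolynomial κ ℂ) (d : ι → ℂ)
    (i : ι) (hdi : d i = 0) (hai : a i = 1) (h : ∀ j, j ≠ i → a j = 0) :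
    IsCoord (NF2 b a d) := by
  classical
  obtain ⟨ψ, h1, -⟩ := POS_elem (Sum.inr i : κ ⊕ ι) 1 one_ne_zero
    (rename Sum.inl b + ∑ j, C (d j) * X (Sum.inr j) ^ 2) (fun t => by
      rw [map_add, map_sum]
      congr 1
      · rw [aeval_rename]
        have h2 : (Function.update X (Sum.inr i) t : κ ⊕ ι → MvPolynomial (κ ⊕ ι) ℂ) ∘ Sum.inl =
            X ∘ Sum.inl := by
          funext k
          exact Function.update_of_ne Sum.inl_ne_inr _ _
        rw [h2, ← aeval_rename, aeval_X_left_apply]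
      · refine Finset.sum_congr rfl fun j _ => ?_
        by_cases hj : j = i
        · subst hj
          rw [hdi, C_0, zero_mul, map_zero]
        · have h2 : (Function.update X (Sum.inr i) t : κ ⊕ ι → MvPolynomial (κ ⊕ ι) ℂ) (Sum.inr j) =
              X (Sum.inr j) :=
            Function.update_of_ne (fun h => hj (Sum.inr_injective h)) _ _
          rw [map_mul, map_pow, aeval_X, h2, algHom_C]
          rfl)
  refine ⟨Sum.inr i, ψ.symm, ?_⟩
  have h3 : NF2 b a d = C 1 * X (Sum.inr i) +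
      (rename Sum.inl b + ∑ j, C (d j) * X (Sum.inr j) ^ 2) := by
    unfold NF2
    have h4 : ∑ j, rename Sum.inl (a j) * X (Sum.inr j) = (X (Sum.inr i) : MvPolynomial (κ ⊕ ι) ℂ) := by
      rw [Finset.sum_eq_single i]
      · rw [hai, map_one, one_mul]
      · intro j _ hj
        rw [h j hj, map_zero, zero_mul]
      · intro hn
        exact absurd (Finset.mem_univ i) hn
    rw [h4, C_1, one_mul]
    ring
  rw [h3, ← h1, AlgEquiv.symm_apply_apply]

/-- X11.  The vector `(a i)_{d i = 0}` is unimodular (`c` restricted); Quillen-Suslin gives `M`, `N`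
with `M *ᵥ a = Pi.single i0 1`; use `U = Mᵀ`, `U' = Nᵀ` in `exists_matrix_aut`, then
`coord_of_single2`, `isCoord_map` (P295K/Inv.lean, import it). -/
theorem pos2 (k : ℕ) (b : MvPolynomial (Fin k) ℂ) (a : ι → MvPolynomial (Fin k) ℂ) (d : ι → ℂ)
    (hd : ∀ i, d i ≠ 0 → a i = 0) (h1 : ∃ c : ι → MvPolynomial (Fin k) ℂ, ∑ i, c i * a i = 1) :
    IsCoord (NF2 b a d) := by
  obtain ⟨c, hc⟩ := h1
  have hs : ∑ i : {i // d i = 0}, c i.1 * a i.1 = 1 := by
    have h2 : ∑ i ∈ Finset.univ.filter (fun i => d i = 0), c i * a i =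
        ∑ i : {i // d i = 0}, c i.1 * a i.1 :=
      Finset.sum_subtype _ (by simp) (fun i => c i * a i)
    rw [← hc, ← h2]
    refine Finset.sum_subset (Finset.filter_subset _ _) ?_
    intro i _ hi
    rw [hd i (by simpa using hi), mul_zero]
  have hne : Nonempty {i // d i = 0} := by
    by_contra hne
    rw [not_nonempty_iff] at hne
    rw [Finset.univ_eq_empty, Finset.sum_empty] at hs
    exact zero_ne_one hs
  obtain ⟨i0⟩ := hne
  obtain ⟨M, N, hMN, hNM, hM⟩ := quillen_suslin k (fun i : {i // d i = 0} => a i.1)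
    ⟨fun i => c i.1, hs⟩ i0
  obtain ⟨ψ, hψ⟩ := exists_matrix_aut b a d hd M.transpose N.transpose
    (by rw [← Matrix.transpose_mul, hNM, Matrix.transpose_one])
    (by rw [← Matrix.transpose_mul, hMN, Matrix.transpose_one])
  apply isCoord_map ψ
  rw [hψ]
  have hv : ∀ j : {i // d i = 0}, ∑ i, M.transpose i j * a i.1 =
      (Pi.single i0 1 : {i // d i = 0} → MvPolynomial (Fin k) ℂ) j := by
    intro j
    rw [← hM]
    rfl
  apply coord_of_single2 _ _ _ i0.1 i0.2
  · rw [dif_pos i0.2, hv]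
    simp
  · intro j hj
    by_cases h : d j = 0
    · rw [dif_pos h, hv, Pi.single_eq_of_ne]
      intro h2
      exact hj (congrArg Subtype.val h2)
    · rw [dif_neg h]

end Vale.Agent.P295M
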