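import Vale.Agent.P295K.Inv
import Vale.Agent.P295M.Form
import Vale.Agent.P295M.Neg2
import Vale.Agent.P295M.Pos2

namespace Vale.Agent.P295M

open MvPolynomial Vale.Agent.P295K

variable {ι : Type} [Fintype ι] [DecidableEq ι]

theorem main2 (k : ℕ) (f : MvPolynomial (Fin k ⊕ ι) ℂ)
    (h : ∀ i j : ι, ∃ c : ℂ, pderiv (Sum.inr i) (pderiv (Sum.inr j) f) = C c)
    (hfin : (Crit f).Finite) (hs : IsStableCoord f) : IsCoord f := by
  obtain ⟨b, a, Q, hQ, rfl⟩ := hess_form2 f h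
  obtain ⟨P, P', d, h1, h2, h5⟩ := exists_diag2 Q hQ
  obtain ⟨ψ, e1⟩ := exists_aut2 b a Q P P' d h1 h2 h5
  obtain ⟨ψ', b', e2⟩ := exists_square2 b (fun j => ∑ i, C (P i j) * a i) d
  refine isCoord_map ψ (isCoord_map ψ' ?_)
  have h6 := isStableCoord_map ψ' (isStableCoord_map ψ hs)
  rw [e1, e2] at h6 ⊢
  have hd : ∀ i, d i ≠ 0 → (fun i => if d i = 0 then ∑ i_1, C (P i_1 i) * a i_1 else 0) i = 0 :=
    fun i hi => by
      show (if d i = 0 then ∑ i_1, C (P i_1 i) * a i_1 else 0) = 0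
      rw [if_neg hi]
  have hset : {x : Fin k → ℂ | ∀ i, eval x ((fun i => if d i = 0 then
      ∑ i_1, C (P i_1 i) * a i_1 else 0) i) = 0} ⊆
      {x : Fin k → ℂ | ∀ j, d j = 0 → eval x (∑ i, C (P i j) * a i) = 0} := by
    intro x hx j hj
    have h7 := hx j
    simp only [if_pos hj] at h7
    exact h7
  have hV : {x : Fin k → ℂ | ∀ i, eval x ((fun i => if d i = 0 then
      ∑ i_1, C (P i_1 i) * a i_1 else 0) i) = 0}.Finite :=
    hfin.subset (hset.trans (crit_sub b a Q P P' hQ d h1 h2 h5))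
  by_cases hne : ∃ v : Fin k → ℂ, ∀ i, eval v ((fun i => if d i = 0 then
      ∑ i_1, C (P i_1 i) * a i_1 else 0) i) = 0
  · obtain ⟨v, hv⟩ := hne
    exact absurd h6 (neg_finite b' _ d hd hV v hv)
  · refine pos2 k b' _ d hd (exists_one_eq _ ?_)
    rw [Set.eq_empty_iff_forall_notMem]
    intro x hx
    exact hne ⟨x, hx⟩

end Vale.Agent.P295M
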